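import Vale.Agent.P043.Real

/-! The periodic tiling conjecture fails in every dimension at least three. -/

namespace Vale.Agent.Results.P043.Aperiodic

open MeasureTheory

/-- `A ⊕ F = ℤ^d`: every point is uniquely `a + f` with `a ∈ A`, `f ∈ F`. -/
def IsTilingZ {d : ℕ} (A : Set (Fin d → ℤ)) (F : Finset (Fin d → ℤ)) : Prop :=
  ∀ g : Fin d → ℤ, ∃! p : (Fin d → ℤ) × (Fin d → ℤ), p.1 ∈ A ∧ p.2 ∈ F ∧ p.1 + p.2 = g

/-- `A + h = A` for all `h` in some subgroup of finite index. -/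
def IsPeriodicZ {d : ℕ} (A : Set (Fin d → ℤ)) : Prop :=
  ∃ H : AddSubgroup (Fin d → ℤ), H.FiniteIndex ∧ ∀ h ∈ H, (fun a => a + h) '' A = A

/-- The translates `Ω + a`, `a ∈ A`, cover `ℝ^d` up to a null set and pairwise meet in null
sets. -/
def IsTilingR {d : ℕ} (A Ω : Set (Fin d → ℝ)) : Prop :=
  volume (⋃ a ∈ A, (fun y => y + a) '' Ω)ᶜ = 0 ∧
    ∀ a ∈ A, ∀ b ∈ A, a ≠ b → volume ((fun y => y + a) '' Ω ∩ (fun y => y + b) '' Ω) = 0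

/-- `A` is invariant under a lattice of rank `d`. -/
def IsPeriodicR {d : ℕ} (A : Set (Fin d → ℝ)) : Prop :=
  ∃ v : Fin d → Fin d → ℝ, LinearIndependent ℝ v ∧
    ∀ h ∈ Submodule.span ℤ (Set.range v), (fun a => a + h) '' A = A

theorem result (d : ℕ) (hd : 3 ≤ d) :
    (∃ F : Finset (Fin d → ℤ), F.Nonempty ∧ (∃ A, IsTilingZ A F) ∧
      ∀ A, IsTilingZ A F → ¬ IsPeriodicZ A) ∧
    (∃ Ω : Set (Fin d → ℝ), Bornology.IsBounded Ω ∧ MeasurableSet Ω ∧ 0 < volume Ω ∧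
      (∃ A, IsTilingR A Ω) ∧ ∀ A, IsTilingR A Ω → ¬ IsPeriodicR A) := by
  obtain ⟨F, ⟨A0, h0⟩, hF⟩ := Vale.Agent.P043.exists_tile d hd
  obtain ⟨f1, ⟨hf1, -⟩, -⟩ := h0 0
  have hT : ∀ A, IsTilingZ A F ↔ Vale.Agent.P043.T A F := by
    intro A
    apply forall_congr'
    intro g
    constructor
    · rintro ⟨⟨a, f⟩, ⟨ha, hf, rfl⟩, hu⟩
      refine ⟨f, ⟨hf, by simpa using ha⟩, fun f' hf' => ?_⟩
      exact congrArg Prod.snd (hu (a + f - f', f') ⟨hf'.2, hf'.1, by simp⟩)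
    · rintro ⟨f, ⟨hf, ha⟩, hu⟩
      refine ⟨(g - f, f), ⟨ha, hf, by simp⟩, ?_⟩
      rintro ⟨a, f'⟩ ⟨ha', hf', rfl⟩
      have := hu f' ⟨hf', by simpa using ha'⟩
      subst this
      simp
  refine ⟨⟨F, ⟨f1, hf1⟩, ⟨A0, (hT A0).mpr h0⟩, ?_⟩, Vale.Agent.P043.Om' F,
    Vale.Agent.P043.Om'_bdd F, Vale.Agent.P043.Om'_meas F, Vale.Agent.P043.Om'_pos hf1,
    ⟨_, Vale.Agent.P043.real_tiling h0⟩, ?_⟩
  · rintro A hA ⟨H, hH, hper⟩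
    refine (hF A ((hT A).mp hA)).1 ⟨H.index, Nat.pos_of_ne_zero hH.index_ne_zero, ?_⟩
    intro g a ha
    rw [← hper _ (H.nsmul_index_mem g)]
    exact ⟨a, ha, rfl⟩
  · rintro A ⟨h1, h2⟩ ⟨v, hv, hper⟩
    exact Vale.Agent.P043.real_aperiodic hf1 hF h1 h2 v hv hper

end Vale.Agent.Results.P043.Aperiodic
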